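import Mathlib

namespace Vale.Agent.Lib.P048

open Finset

variable {V : Type*}

/-- `c 0, …, c (l-1)` are pairwise distinct, consecutive ones are adjacent, and the last one is
adjacent to the first one. -/
def IsCycSeq (G : SimpleGraph V) (c : ℕ → V) (l : ℕ) : Prop :=
  Set.InjOn c (Set.Iio l) ∧ (∀ i, i + 1 < l → G.Adj (c i) (c (i + 1))) ∧ G.Adj (c (l - 1)) (c 0)

/-- `p 0, …, p (k-1)` are pairwise distinct vertices of `S` and consecutive ones are adjacent. -/
def IsPathSeq (G : SimpleGraph V) (S : Finset V) (p : ℕ → V) (k : ℕ) : Prop :=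
  Set.InjOn p (Set.Iio k) ∧ (∀ i, i < k → p i ∈ S) ∧ (∀ i, i + 1 < k → G.Adj (p i) (p (i + 1)))

/-- Shortening a long cycle by a chord between two of the vertices `c 0, c 2, …, c (2a)`. -/
theorem IsCycSeq.shorten {G : SimpleGraph V} {c : ℕ → V} {l a : ℕ}
    (hc : IsCycSeq G c l) (hα : ∀ s : Finset V, G.IsIndepSet (s : Set V) → s.card ≤ a)
    (hl : 2 * a + 2 ≤ l) :
    ∃ c' l', IsCycSeq G c' l' ∧ l + 1 ≤ l' + 2 * a ∧ l' < l := by
  classical
  obtain ⟨hinj, hadj, hclose⟩ := hc
  -- find a chord among c 0, c 2, ..., c (2a)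
  have hex : ∃ i j, i < j ∧ j ≤ a ∧ G.Adj (c (2 * i)) (c (2 * j)) := by
    by_contra hcon
    have hT : G.IsIndepSet (((Finset.range (a + 1)).image (fun i => c (2 * i)) : Finset V) : Set V) := by
      intro x hx y hy hxy hadjxy
      simp only [Finset.coe_image, Finset.coe_range, Set.mem_image, Set.mem_Iio] at hx hy
      obtain ⟨i, hi, rfl⟩ := hx
      obtain ⟨j, hj, rfl⟩ := hy
      rcases lt_trichotomy i j with h | h | h
      · exact hcon ⟨i, j, h, by omega, hadjxy⟩
      · exact hxy (by rw [h])
      · exact hcon ⟨j, i, h, by omega, hadjxy.symm⟩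
    have hcard : ((Finset.range (a + 1)).image (fun i => c (2 * i))).card = a + 1 := by
      rw [Finset.card_image_of_injOn, Finset.card_range]
      intro i hi j hj hij
      simp only [Finset.coe_range, Set.mem_Iio] at hi hj
      have h1 : 2 * i ∈ Set.Iio l := by simp only [Set.mem_Iio]; omega
      have h2 : 2 * j ∈ Set.Iio l := by simp only [Set.mem_Iio]; omega
      have := hinj h1 h2 hij
      omega
    have := hα _ hT
    omega
  obtain ⟨i, j, hij, hja, hchord⟩ := hex
  refine ⟨fun k => if k ≤ 2 * i then c k else c (k + (2 * j - 2 * i - 1)), l - (2 * j - 2 * i - 1),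
    ⟨?_, ?_, ?_⟩, by omega, by omega⟩
  · intro k1 hk1 k2 hk2 h
    simp only [Set.mem_Iio] at hk1 hk2
    simp only at h
    by_cases h1 : k1 ≤ 2 * i <;> by_cases h2 : k2 ≤ 2 * i
    · rw [if_pos h1, if_pos h2] at h
      exact hinj (by simp only [Set.mem_Iio]; omega) (by simp only [Set.mem_Iio]; omega) h
    · rw [if_pos h1, if_neg h2] at h
      have := hinj (by simp only [Set.mem_Iio]; omega) (by simp only [Set.mem_Iio]; omega) h
      omega
    · rw [if_neg h1, if_pos h2] at h
      have := hinj (by simp only [Set.mem_Iio]; omega) (by simp only [Set.mem_Iio]; omega) h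
      omega
    · rw [if_neg h1, if_neg h2] at h
      have := hinj (by simp only [Set.mem_Iio]; omega) (by simp only [Set.mem_Iio]; omega) h
      omega
  · intro k hk
    simp only
    by_cases h1 : k + 1 ≤ 2 * i
    · rw [if_pos (by omega), if_pos h1]
      exact hadj k (by omega)
    · by_cases h2 : k ≤ 2 * i
      · have hk2 : k = 2 * i := by omega
        rw [if_pos h2, if_neg h1]
        have e : k + 1 + (2 * j - 2 * i - 1) = 2 * j := by omega
        rw [e, hk2]
        exact hchord
      · rw [if_neg h2, if_neg h1]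
        have e : k + 1 + (2 * j - 2 * i - 1) = k + (2 * j - 2 * i - 1) + 1 := by omega
        rw [e]
        exact hadj _ (by omega)
  · simp only
    rw [if_neg (by omega), if_pos (by omega)]
    have e : l - (2 * j - 2 * i - 1) - 1 + (2 * j - 2 * i - 1) = l - 1 := by omega
    rw [e]
    exact hclose

/-- A path sequence has at most `S.card` vertices. -/
theorem IsPathSeq.le_card {G : SimpleGraph V} {S : Finset V} {p : ℕ → V} {k : ℕ}
    (hp : IsPathSeq G S p k) : k ≤ S.card := by
  classical
  obtain ⟨hinj, hS, -⟩ := hp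
  have h1 : ((Finset.range k).image p).card = k := by
    rw [Finset.card_image_of_injOn, Finset.card_range]
    intro i hi j hj hij
    simp only [Finset.coe_range, Set.mem_Iio] at hi hj
    exact hinj hi hj hij
  have h2 : (Finset.range k).image p ⊆ S := by
    intro x hx
    simp only [Finset.mem_image, Finset.mem_range] at hx
    obtain ⟨i, hi, rfl⟩ := hx
    exact hS i hi
  calc k = ((Finset.range k).image p).card := h1.symm
    _ ≤ S.card := Finset.card_le_card h2

/-- Prepending a new vertex of `S` adjacent to the first vertex of a path sequence. -/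
theorem IsPathSeq.prepend {G : SimpleGraph V} {S : Finset V} {p : ℕ → V} {k : ℕ}
    (hp : IsPathSeq G S p k) (hk : 1 ≤ k) {w : V} (hw : w ∈ S) (hadj : G.Adj w (p 0))
    (hnew : ∀ j, j < k → w ≠ p j) :
    IsPathSeq G S (fun i => if i = 0 then w else p (i - 1)) (k + 1) := by
  obtain ⟨hinj, hS, hpadj⟩ := hp
  refine ⟨?_, ?_, ?_⟩
  · intro i hi j hj h
    simp only [Set.mem_Iio] at hi hj
    simp only at h
    by_cases h1 : i = 0 <;> by_cases h2 : j = 0
    · omega
    · rw [if_pos h1, if_neg h2] at h
      exact absurd h (hnew (j - 1) (by omega))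
    · rw [if_neg h1, if_pos h2] at h
      exact absurd h.symm (hnew (i - 1) (by omega))
    · rw [if_neg h1, if_neg h2] at h
      have := hinj (by simp only [Set.mem_Iio]; omega) (by simp only [Set.mem_Iio]; omega) h
      omega
  · intro i hi
    simp only
    by_cases h1 : i = 0
    · rw [if_pos h1]; exact hw
    · rw [if_neg h1]; exact hS _ (by omega)
  · intro i hi
    simp only
    by_cases h1 : i = 0
    · subst h1
      simp only [if_true, Nat.zero_add, one_ne_zero, if_false, Nat.sub_self]
      exact hadj
    · rw [if_neg h1, if_neg (by omega)]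
      have e : i + 1 - 1 = (i - 1) + 1 := by omega
      rw [e]
      exact hpadj _ (by omega)

/-- If every vertex of the nonempty set `S` has at least `m - 1` neighbours in `S`, then there is
a cycle of length at least `m`. -/
theorem exists_cycle_of_min_degree {G : SimpleGraph V} [DecidableRel G.Adj] {S : Finset V} {m : ℕ}
    (hm : 2 ≤ m) (hS : S.Nonempty)
    (hdeg : ∀ v ∈ S, m ≤ (S.filter (fun w => G.Adj v w)).card + 1) :
    ∃ c l, m ≤ l ∧ IsCycSeq G c l := by
  classical
  -- a longest path sequence in S
  obtain ⟨x0, hx0⟩ := hS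
  have hP1 : ∃ p, IsPathSeq G S p 1 := by
    refine ⟨fun _ => x0, ?_, ?_, ?_⟩
    · intro i hi j hj _
      simp only [Set.mem_Iio] at hi hj
      omega
    · intro i _; exact hx0
    · intro i hi; omega
  have hcardpos : 1 ≤ S.card := Finset.card_pos.mpr ⟨x0, hx0⟩
  set K := Nat.findGreatest (fun k => ∃ p, IsPathSeq G S p k) S.card with hK
  have hKspec : ∃ p, IsPathSeq G S p K := Nat.findGreatest_spec (P := fun k => ∃ p, IsPathSeq G S p k) hcardpos hP1
  have hK1 : 1 ≤ K := Nat.le_findGreatest hcardpos hP1
  have hKmax : ∀ k, (∃ p, IsPathSeq G S p k) → k ≤ K := by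
    intro k hk
    obtain ⟨q, hq⟩ := hk
    exact Nat.le_findGreatest hq.le_card ⟨q, hq⟩
  obtain ⟨p, hp⟩ := hKspec
  have hp' := hp
  obtain ⟨hinj, hpS, hpadj⟩ := hp
  -- every neighbour in S of p 0 lies on the path
  have hon : ∀ w ∈ S, G.Adj (p 0) w → ∃ j, j < K ∧ w = p j := by
    intro w hw hadj
    by_contra hcon
    have hnew : ∀ j, j < K → w ≠ p j := fun j hj h => hcon ⟨j, hj, h⟩
    have := hKmax (K + 1) ⟨_, hp'.prepend hK1 hw hadj.symm hnew⟩
    omega
  set J := (Finset.range K).filter (fun j => G.Adj (p 0) (p j)) with hJ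
  have hNJ : (S.filter (fun w => G.Adj (p 0) w)) ⊆ J.image p := by
    intro w hw
    simp only [Finset.mem_filter] at hw
    obtain ⟨j, hj, rfl⟩ := hon w hw.1 hw.2
    simp only [Finset.mem_image]
    exact ⟨j, by simp only [hJ, Finset.mem_filter, Finset.mem_range]; exact ⟨hj, hw.2⟩, rfl⟩
  have hJcard : m ≤ J.card + 1 := by
    have h1 := hdeg (p 0) (hpS 0 (by omega))
    have h2 : (S.filter (fun w => G.Adj (p 0) w)).card ≤ J.card :=
      le_trans (Finset.card_le_card hNJ) Finset.card_image_le
    omega
  have hJne : J.Nonempty := by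
    rw [← Finset.card_pos]; omega
  set jmax := J.max' hJne with hjmax
  have hjmem : jmax ∈ J := Finset.max'_mem J hJne
  have hjmem' : jmax < K ∧ G.Adj (p 0) (p jmax) := by
    simpa only [hJ, Finset.mem_filter, Finset.mem_range] using hjmem
  have hJsub : J ⊆ Finset.Icc 1 jmax := by
    intro j hj
    have hle : j ≤ jmax := Finset.le_max' J j hj
    have hj' : j < K ∧ G.Adj (p 0) (p j) := by
      simpa only [hJ, Finset.mem_filter, Finset.mem_range] using hj
    have hj0 : j ≠ 0 := by
      rintro rfl
      exact G.loopless.irrefl _ hj'.2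
    simp only [Finset.mem_Icc]
    omega
  have hJle : J.card ≤ jmax := by
    have := Finset.card_le_card hJsub
    simpa only [Nat.card_Icc, Nat.add_sub_cancel] using this
  refine ⟨p, jmax + 1, by omega, ?_, ?_, ?_⟩
  · intro i hi j hj h
    simp only [Set.mem_Iio] at hi hj
    exact hinj (by simp only [Set.mem_Iio]; omega) (by simp only [Set.mem_Iio]; omega) h
  · intro i hi
    exact hpadj i (by omega)
  · simp only [Nat.add_sub_cancel]
    exact hjmem'.2.symm

/-- If `S` has more than `(m - 1) * a` vertices and every independent subset of `S` has at most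
`a` vertices, then the graph has a cycle of length at least `m`. -/
theorem exists_long_cycle (G : SimpleGraph V) {m : ℕ} (hm : 2 ≤ m) :
    ∀ (a : ℕ) (S : Finset V), (m - 1) * a < S.card →
      (∀ s : Finset V, s ⊆ S → G.IsIndepSet (s : Set V) → s.card ≤ a) →
      ∃ c l, m ≤ l ∧ IsCycSeq G c l := by
  classical
  intro a
  induction a with
  | zero =>
    intro S hS hα
    have hne : S.Nonempty := Finset.card_pos.mp (by omega)
    obtain ⟨x, hx⟩ := hne
    have h1 : G.IsIndepSet (({x} : Finset V) : Set V) := by
      intro u hu v hv huv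
      simp only [Finset.coe_singleton, Set.mem_singleton_iff] at hu hv
      exact absurd (hu.trans hv.symm) huv
    have := hα {x} (Finset.singleton_subset_iff.mpr hx) h1
    simp only [Finset.card_singleton] at this
    omega
  | succ a ih =>
    intro S hS hα
    by_cases hlow : ∃ v ∈ S, (S.filter (fun w => G.Adj v w)).card + 1 < m
    · -- a vertex of small degree: delete it with its neighbours
      obtain ⟨v, hvS, hv⟩ := hlow
      set S' := S.filter (fun w => w ≠ v ∧ ¬ G.Adj v w) with hS'
      have hsub : S ⊆ insert v (S.filter (fun w => G.Adj v w) ∪ S') := by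
        intro w hw
        by_cases h1 : w = v
        · rw [h1]; exact Finset.mem_insert_self _ _
        · by_cases h2 : G.Adj v w
          · exact Finset.mem_insert_of_mem (Finset.mem_union_left _ (Finset.mem_filter.mpr ⟨hw, h2⟩))
          · exact Finset.mem_insert_of_mem
              (Finset.mem_union_right _ (Finset.mem_filter.mpr ⟨hw, h1, h2⟩))
      have hcard : S.card ≤ (S.filter (fun w => G.Adj v w)).card + S'.card + 1 := by
        calc S.card ≤ (insert v (S.filter (fun w => G.Adj v w) ∪ S')).card := Finset.card_le_card hsub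
          _ ≤ (S.filter (fun w => G.Adj v w) ∪ S').card + 1 := Finset.card_insert_le _ _
          _ ≤ (S.filter (fun w => G.Adj v w)).card + S'.card + 1 := by
            have := Finset.card_union_le (S.filter (fun w => G.Adj v w)) S'
            omega
      have hS'card : (m - 1) * a < S'.card := by
        have e : (m - 1) * (a + 1) = (m - 1) * a + (m - 1) := by ring
        omega
      refine ih S' hS'card ?_
      intro s hs hind
      have hvs : v ∉ s := by
        intro hvs
        have := hs hvs
        simp only [hS', Finset.mem_filter] at this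
        exact this.2.1 rfl
      have hind' : G.IsIndepSet ((insert v s : Finset V) : Set V) := by
        intro x hx y hy hxy hadj
        simp only [Finset.coe_insert, Set.mem_insert_iff, Finset.mem_coe] at hx hy
        rcases hx with rfl | hx <;> rcases hy with rfl | hy
        · exact hxy rfl
        · have := hs hy
          simp only [hS', Finset.mem_filter] at this
          exact this.2.2 hadj
        · have := hs hx
          simp only [hS', Finset.mem_filter] at this
          exact this.2.2 hadj.symm
        · exact hind (Finset.mem_coe.mpr hx) (Finset.mem_coe.mpr hy) hxy hadj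
      have hsubS : insert v s ⊆ S := by
        intro w hw
        rcases Finset.mem_insert.mp hw with rfl | hw
        · exact hvS
        · exact (Finset.mem_filter.mp (hs hw)).1
      have := hα (insert v s) hsubS hind'
      rw [Finset.card_insert_of_notMem hvs] at this
      omega
    · -- every vertex of S has at least m - 1 neighbours in S
      have hdeg : ∀ v ∈ S, m ≤ (S.filter (fun w => G.Adj v w)).card + 1 := by
        intro v hv
        by_contra hcon
        exact hlow ⟨v, hv, by omega⟩
      have hne : S.Nonempty := Finset.card_pos.mp (by omega)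
      exact exists_cycle_of_min_degree hm hne hdeg

/-- The shortest cycle of length at least `m` has length at most `m + 2 * a - 2`. -/
theorem exists_cycle_window (G : SimpleGraph V) {m a : ℕ} (hm : 3 ≤ m) (S : Finset V)
    (hS : (m - 1) * a < S.card)
    (hα : ∀ s : Finset V, G.IsIndepSet (s : Set V) → s.card ≤ a) :
    ∃ c l, m ≤ l ∧ l + 2 ≤ m + 2 * a ∧ IsCycSeq G c l := by
  classical
  have hex : ∃ l, m ≤ l ∧ ∃ c, IsCycSeq G c l := by
    obtain ⟨c, l, hl, hc⟩ := exists_long_cycle G (by omega : 2 ≤ m) a S hS (fun s _ hs => hα s hs)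
    exact ⟨l, hl, c, hc⟩
  have hspec := Nat.find_spec hex
  have hmin := fun k => Nat.find_min (H := hex) (m := k)
  set l := Nat.find hex with hl
  obtain ⟨hml, c, hc⟩ := hspec
  refine ⟨c, l, hml, ?_, hc⟩
  by_contra hcon
  have hbig : 2 * a + 2 ≤ l := by omega
  obtain ⟨c', l', hc', h1, h2⟩ := hc.shorten hα hbig
  exact hmin l' h2 ⟨by omega, c', hc'⟩

/-- A cycle sequence of length at least three gives a cycle walk of the same length. -/
theorem IsCycSeq.exists_walk {G : SimpleGraph V} {c : ℕ → V} {l : ℕ} (hc : IsCycSeq G c l)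
    (hl : 3 ≤ l) : ∃ (v : V) (p : G.Walk v v), p.IsCycle ∧ p.length = l := by
  classical
  obtain ⟨hinj, hadj, hclose⟩ := hc
  have key : ∀ k, k < l → ∃ q : G.Walk (c 0) (c k), q.IsPath ∧ q.length = k ∧
      (∀ x ∈ q.support, ∃ i, i ≤ k ∧ x = c i) ∧
      (∀ e ∈ q.edges, ∃ i, i < k ∧ e = s(c i, c (i + 1))) := by
    intro k
    induction k with
    | zero =>
      intro _
      refine ⟨SimpleGraph.Walk.nil, SimpleGraph.Walk.IsPath.nil, rfl, ?_, ?_⟩
      · intro x hx
        simp only [SimpleGraph.Walk.support_nil, List.mem_singleton] at hx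
        exact ⟨0, le_refl _, hx⟩
      · intro e he
        simp only [SimpleGraph.Walk.edges_nil, List.not_mem_nil] at he
    | succ k ih =>
      intro hk
      obtain ⟨q, hq, hlen, hsupp, hedges⟩ := ih (by omega)
      have hnot : c (k + 1) ∉ q.support := by
        intro hmem
        obtain ⟨i, hi, hci⟩ := hsupp _ hmem
        have := hinj (by simp only [Set.mem_Iio]; omega) (by simp only [Set.mem_Iio]; omega) hci
        omega
      refine ⟨q.concat (hadj k hk), hq.concat hnot _, ?_, ?_, ?_⟩
      · rw [SimpleGraph.Walk.length_concat, hlen]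
      · intro x hx
        rw [SimpleGraph.Walk.support_concat, List.mem_append, List.mem_singleton] at hx
        rcases hx with hx | hx
        · obtain ⟨i, hi, rfl⟩ := hsupp x hx
          exact ⟨i, by omega, rfl⟩
        · exact ⟨k + 1, le_refl _, hx⟩
      · intro e he
        rw [SimpleGraph.Walk.edges_concat, List.concat_eq_append, List.mem_append,
          List.mem_singleton] at he
        rcases he with he | he
        · obtain ⟨i, hi, rfl⟩ := hedges e he
          exact ⟨i, by omega, rfl⟩
        · exact ⟨k, by omega, he⟩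
  obtain ⟨q, hq, hlen, -, hedges⟩ := key (l - 1) (by omega)
  refine ⟨c (l - 1), SimpleGraph.Walk.cons hclose q, ?_, ?_⟩
  · rw [SimpleGraph.Walk.cons_isCycle_iff]
    refine ⟨hq, ?_⟩
    intro hmem
    obtain ⟨i, hi, he⟩ := hedges _ hmem
    rw [Sym2.eq_iff] at he
    rcases he with ⟨_, h2⟩ | ⟨h1, h2⟩
    · have := hinj (by simp only [Set.mem_Iio]; omega) (by simp only [Set.mem_Iio]; omega) h2
      omega
    · have a1 := hinj (by simp only [Set.mem_Iio]; omega) (by simp only [Set.mem_Iio]; omega) h1
      have a2 := hinj (by simp only [Set.mem_Iio]; omega) (by simp only [Set.mem_Iio]; omega) h2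
      omega
  · rw [SimpleGraph.Walk.length_cons, hlen]
    omega

end Vale.Agent.Lib.P048
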